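import Vale.Agent.P032.S5.H503.WebI
import Vale.Agent.P032.Net.Fam2

/-!
# P032: the networks of `Irr U T` with centres of class (V)

`TabU2`: as `TabU`, but the single end strictly between the two double ends may also come with the
signs `SgE` for both double ends.
-/

open Set Filter Topology Metric

noncomputable section

namespace Vale.Agent.P032.Six

open Vale.Agent.P032.Net (Web1 WebG Opp Bad22 det dt Sg)

variable {U : Fin 6 → Set ℂ} {T : ℂ → Set (Fin 6)} {X : Set (Fin 6)} {z v q m : ℂ}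

/-- the sign of the end `q` seen from the end `v`: on the side of the arc's back the end is less
than 90 degrees away, on the side of the arc more than 90 degrees -/
def SgE (T : ℂ → Set (Fin 6)) (z v q : ℂ) : Prop :=
  0 < ore T z v * cr (v - z) (q - z) * dt (v - z) (q - z)

/-- the facts on one centre -/
structure TabU2 (T : ℂ → Set (Fin 6)) : Prop where
  s12 : ∀ {z v q q' : ℂ}, EE T z v → EE T z q → EE T z q' → T q = (T v)ᶜ → T q' = (T v)ᶜ →
    q ≠ q' → (∀ m, EE T z m → T m = T v → m = v) →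
    (∀ m, EE T z m → T m = (T v)ᶜ → m = q ∨ m = q') → cr (v - z) (q - z) * cr (v - z) (q' - z) < 0
  out : ∀ {z v q : ℂ}, EE T z v → EE T z q → T q = (T v)ᶜ →
    (∀ m, EE T z m → T m = T v → m = v) → (∀ m, EE T z m → T m = (T v)ᶜ → m = q) →
    0 < ore T z v * cr (v - z) (q - z)
  f2 : ∀ {z v q q' : ℂ}, EE T z v → EE T z q → EE T z q' → T q = (T v)ᶜ → T q' = (T v)ᶜ →
    q ≠ q' → (∀ m, EE T z m → T m = T v → m = v) → Opp (v - z) (q - z) (q' - z) →
    (∃ Y : Set (Fin 6), Bad22 (PE T Y) (PE T Yᶜ) z) ∨ (SgE T z v q ∧ SgE T z v q')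

theorem TabU.two {T : ℂ → Set (Fin 6)} (ht : TabU T) : TabU2 T :=
  ⟨ht.s12, ht.out, fun a b c d e f g h => Or.inl (ht.f2 a b c d e f g h)⟩

/-- **the instance of the network**, only `s12` and `out` -/
theorem web1_of2 (h : Irr U T) (h4 : ∀ z, (T z).ncard ≤ 4) (hl : LP3EE T) (ht : TabU2 T)
    (X : Set (Fin 6)) : Web1 (PE T X) (PE T Xᶜ) (ore T) where
  rh := fun hv hq => hv.rh h h4 hq
  threeP := fun ha hb hc hd ha' hb' hc' hd' => ha.three h hb hc hd ha' hb' hc' hd'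
  threeQ := fun ha hb hc hd ha' hb' hc' hd' => PE.three h ha hb hc hd
    (ha'.imp fun _ x => x.cc'') (hb'.imp fun _ x => x.cc'') (hc'.imp fun _ x => x.cc'')
    (hd'.imp fun _ x => x.cc'')
  sep := fun hv hv' hq hq' => hv.sep h hv' hq hq'
  s12 := fun {z v q q'} hv hq hq' hne h1 h2 => by
    refine ht.s12 hv.1 hq.1 hq'.1 (hv.cc hq) (hv.cc hq') hne (fun m hm hTm => ?_)
      (fun m hm hTm => ?_)
    · exact h1 m ⟨hm, hTm.trans hv.2⟩
    · exact h2 m ⟨hm, by rw [hTm, hv.2]⟩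
  s21 := fun {z v q q'} hv hq hq' hne h1 h2 => by
    have c1 : ∀ {q : ℂ}, PE T X z q → T q = (T v)ᶜ := fun hq => by
      rw [hv.2, compl_compl]; exact hq.2
    refine ht.s12 hv.1 hq.1 hq'.1 (c1 hq) (c1 hq') hne (fun m hm hTm => ?_) (fun m hm hTm => ?_)
    · exact h1 m ⟨hm, hTm.trans hv.2⟩
    · exact h2 m ⟨hm, by rw [hTm, hv.2, compl_compl]⟩
  outP := fun {z v q} hv hq h1 h2 => by
    refine ht.out hv.1 hq.1 (hv.cc hq) (fun m hm hTm => ?_) (fun m hm hTm => ?_)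
    · exact h1 m ⟨hm, hTm.trans hv.2⟩
    · exact h2 m ⟨hm, by rw [hTm, hv.2]⟩
  outQ := fun {z v q} hv hq h1 h2 => by
    have c1 : T v = (T q)ᶜ := by rw [hv.2, hq.2, compl_compl]
    refine ht.out hq.1 hv.1 c1 (fun m hm hTm => ?_) (fun m hm hTm => ?_)
    · exact h2 m ⟨hm, hTm.trans hq.2⟩
    · exact h1 m ⟨hm, by rw [hTm, hq.2, compl_compl]⟩
  lp3P := fun {z v q c p} hv hq hc hp n1 n2 =>
    hl hv.1 hq.1 (hv.cc hq) hc.1 hp.1 (hc.cc hp) n1 n2
  lp3Q := fun {z v q c p} hv hq hc hp n1 n2 => by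
    refine hl hv.1 hq.1 ?_ hc.1 hp.1 ?_ n1 n2
    · rw [hv.2, hq.2, compl_compl]
    · rw [hc.2, hp.2, compl_compl]

/-- the family of the networks -/
theorem webG_of2 (h : Irr U T) (h4 : ∀ z, (T z).ncard ≤ 4) (hl : LP3EE T) (ht : TabU2 T) :
    WebG (fun X : Set (Fin 6) => PE T X) (fun X => PE T Xᶜ) (fun _ => ore T) where
  web := fun X => web1_of2 h h4 hl ht X
  f2P := fun {X z v q q'} hv hq hq' hne h1 ho =>
    ht.f2 hv.1 hq.1 hq'.1 (hv.cc hq) (hv.cc hq') hne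
      (fun m hm hTm => h1 m ⟨hm, hTm.trans hv.2⟩) ho
  f2Q := fun {X z v q q'} hv hq hq' hne h1 ho => by
    have c1 : ∀ {q : ℂ}, PE T X z q → T q = (T v)ᶜ := fun hq => by
      rw [hv.2, compl_compl]; exact hq.2
    exact ht.f2 hv.1 hq.1 hq'.1 (c1 hq) (c1 hq') hne
      (fun m hm hTm => h1 m ⟨hm, hTm.trans hv.2⟩) ho

/-- **no centre has two ends of a type and two ends of the complementary type** -/
theorem no22_EE2 (h : Irr U T) (h4 : ∀ z, (T z).ncard ≤ 4) (hl : LP3EE T) (ht : TabU2 T)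
    {z v₁ v₂ q₁ q₂ : ℂ} (h1 : EE T z v₁) (h2 : EE T z v₂) (h12 : v₁ ≠ v₂) (k1 : EE T z q₁)
    (k2 : EE T z q₂) (k12 : q₁ ≠ q₂) (e2 : T v₂ = T v₁) (f1 : T q₁ = (T v₁)ᶜ)
    (f2 : T q₂ = (T v₁)ᶜ) : False :=
  (webG_of2 h h4 hl ht).no22 (i := T v₁) (show PE T (T v₁) z v₁ from ⟨h1, rfl⟩)
    (show PE T (T v₁) z v₂ from ⟨h2, e2⟩) h12 (show PE T (T v₁)ᶜ z q₁ from ⟨k1, f1⟩)
    (show PE T (T v₁)ᶜ z q₂ from ⟨k2, f2⟩) k12

/-- **the second centres have a single end**: at a centre with two ends `q, q'` of the type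
`(T v)ᶜ` the second centre `v + q - z` has `q` as its only end of that type -/
theorem second_EE2 (h : Irr U T) (h4 : ∀ z, (T z).ncard ≤ 4) (hl : LP3EE T) (ht : TabU2 T)
    {z v q q' s : ℂ} (hv : EE T z v) (hq : EE T z q) (hq' : EE T z q') (hne : q ≠ q')
    (e1 : T q = (T v)ᶜ) (e2 : T q' = (T v)ᶜ) (hs : EE T (v + q - z) s) (e3 : T s = (T v)ᶜ) :
    s = q :=
  (webG_of2 h h4 hl ht).second (i := T v) (show PE T (T v) z v from ⟨hv, rfl⟩)
    (show PE T (T v)ᶜ z q from ⟨hq, e1⟩) (show PE T (T v)ᶜ z q' from ⟨hq', e2⟩) hne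
    (show PE T (T v)ᶜ (v + q - z) s from ⟨hs, e3⟩)

/-- a single end strictly between the two others has the signs of class (V) -/
theorem opp_SgE (h : Irr U T) (h4 : ∀ z, (T z).ncard ≤ 4) (hl : LP3EE T) (ht : TabU2 T)
    {z v q q' : ℂ} (hv : EE T z v) (hq : EE T z q) (hq' : EE T z q') (hne : q ≠ q')
    (e1 : T q = (T v)ᶜ) (e2 : T q' = (T v)ᶜ) (hs : ∀ m, EE T z m → T m = T v → m = v)
    (ho : Opp (v - z) (q - z) (q' - z)) : SgE T z v q ∧ SgE T z v q' :=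
  (webG_of2 h h4 hl ht).opp_sg (i := T v) (show PE T (T v) z v from ⟨hv, rfl⟩)
    (show PE T (T v)ᶜ z q from ⟨hq, e1⟩) (show PE T (T v)ᶜ z q' from ⟨hq', e2⟩) hne
    (fun m hm => hs m hm.1 hm.2) ho

end Vale.Agent.P032.Six
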