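import Vale.Agent.P032.S5.H503.WebI2
import Vale.Agent.P032.Net.Fam3
import Vale.Agent.P032.S5.H12.Fld2

/-!
# P032: the networks of `Irr U T` with centres of the classes (I), (V), (III)

`TabU3 E`: as `TabU`, but the single end strictly between the two double ends may also come with
`Wide E`: the double ends are more than 120 degrees apart and have opposite orientations (or, if
`E`, both have the orientation opposite to the single end).
-/

open Set Filter Topology Metric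

noncomputable section

namespace Vale.Agent.P032.Six

open Vale.Agent.P032.Net (Web1 WebG WebH Opp Bad22 det dt Sg Wide FullV)

variable {U : Fin 6 → Set ℂ} {T : ℂ → Set (Fin 6)} {X : Set (Fin 6)} {z v q m : ℂ} {E : Prop}

/-- the law of the orientations at a full vertex -/
def LawEE (T : ℂ → Set (Fin 6)) : Prop :=
  ∀ {X : Set (Fin 6)} {v c₁ c₂ c₃ : ℂ}, FullV (PE T X) (PE T Xᶜ) v c₁ c₂ c₃ →
    0 < cr (c₁ - v) (c₂ - v) * cr (c₃ - v) (c₁ - v) →
      ore T c₂ (c₁ + c₂ - v) = -ore T c₃ (c₁ + c₃ - v)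

/-- the facts on one centre -/
structure TabU3 (E : Prop) (T : ℂ → Set (Fin 6)) : Prop where
  s12 : ∀ {z v q q' : ℂ}, EE T z v → EE T z q → EE T z q' → T q = (T v)ᶜ → T q' = (T v)ᶜ →
    q ≠ q' → (∀ m, EE T z m → T m = T v → m = v) →
    (∀ m, EE T z m → T m = (T v)ᶜ → m = q ∨ m = q') → cr (v - z) (q - z) * cr (v - z) (q' - z) < 0
  out : ∀ {z v q : ℂ}, EE T z v → EE T z q → T q = (T v)ᶜ →
    (∀ m, EE T z m → T m = T v → m = v) → (∀ m, EE T z m → T m = (T v)ᶜ → m = q) →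
    0 < ore T z v * cr (v - z) (q - z)
  f2 : ∀ {z v q q' : ℂ}, EE T z v → EE T z q → EE T z q' → T q = (T v)ᶜ → T q' = (T v)ᶜ →
    q ≠ q' → (∀ m, EE T z m → T m = T v → m = v) → Opp (v - z) (q - z) (q' - z) →
    (∃ Y : Set (Fin 6), Bad22 (PE T Y) (PE T Yᶜ) z) ∨ Wide E (ore T) z v q q'
  f22 : E → ∀ {z v₁ v₂ q₁ q₂ : ℂ}, EE T z v₁ → EE T z v₂ → v₁ ≠ v₂ → T v₂ = T v₁ → EE T z q₁ →
    EE T z q₂ → q₁ ≠ q₂ → T q₁ = (T v₁)ᶜ → T q₂ = (T v₁)ᶜ → Opp (v₁ - z) (q₁ - z) (q₂ - z) →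
    Opp (v₂ - z) (q₁ - z) (q₂ - z) → ore T z q₁ = ore T z v₁ → ore T z q₂ = ore T z v₁ →
    ore T z v₂ = ore T z v₁ → False

theorem TabU.three' {T : ℂ → Set (Fin 6)} (ht : TabU T) : TabU3 False T :=
  ⟨ht.s12, ht.out, fun a b c d e f g h => Or.inl (ht.f2 a b c d e f g h), fun h => h.elim⟩

theorem dt_EE (hv : EE T z v) : dt (v - z) (v - z) = 1 := by
  have h1 := hv.dist
  rw [dist_eq_norm] at h1
  have h2 := Complex.sq_norm (v - z)
  rw [h1, Complex.normSq_apply] at h2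
  unfold dt
  linarith

/-- the family of the networks -/
theorem webH_of (h : Irr U T) (h4 : ∀ z, (T z).ncard ≤ 4) (hl : LP3EE T) (hL : LawEE T)
    (ht : TabU3 E T) : WebH E (fun X : Set (Fin 6) => PE T X) (fun X => PE T Xᶜ)
      (fun _ => ore T) where
  web := fun X => by
    -- only `s12`, `out` are used
    have aux : Web1 (PE T X) (PE T Xᶜ) (ore T) :=
      { rh := fun hv hq => hv.rh h h4 hq
        threeP := fun ha hb hc hd ha' hb' hc' hd' => ha.three h hb hc hd ha' hb' hc' hd'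
        threeQ := fun ha hb hc hd ha' hb' hc' hd' => PE.three h ha hb hc hd
          (ha'.imp fun _ x => x.cc'') (hb'.imp fun _ x => x.cc'') (hc'.imp fun _ x => x.cc'')
          (hd'.imp fun _ x => x.cc'')
        sep := fun hv hv' hq hq' => hv.sep h hv' hq hq'
        s12 := fun {z v q q'} hv hq hq' hne h1 h2 => by
          refine ht.s12 hv.1 hq.1 hq'.1 (hv.cc hq) (hv.cc hq') hne (fun m hm hTm => ?_)
            (fun m hm hTm => ?_)
          · exact h1 m ⟨hm, hTm.trans hv.2⟩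
          · exact h2 m ⟨hm, by rw [hTm, hv.2]⟩
        s21 := fun {z v q q'} hv hq hq' hne h1 h2 => by
          have c1 : ∀ {q : ℂ}, PE T X z q → T q = (T v)ᶜ := fun hq => by
            rw [hv.2, compl_compl]; exact hq.2
          refine ht.s12 hv.1 hq.1 hq'.1 (c1 hq) (c1 hq') hne (fun m hm hTm => ?_)
            (fun m hm hTm => ?_)
          · exact h1 m ⟨hm, hTm.trans hv.2⟩
          · exact h2 m ⟨hm, by rw [hTm, hv.2, compl_compl]⟩
        outP := fun {z v q} hv hq h1 h2 => by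
          refine ht.out hv.1 hq.1 (hv.cc hq) (fun m hm hTm => ?_) (fun m hm hTm => ?_)
          · exact h1 m ⟨hm, hTm.trans hv.2⟩
          · exact h2 m ⟨hm, by rw [hTm, hv.2]⟩
        outQ := fun {z v q} hv hq h1 h2 => by
          have c1 : T v = (T q)ᶜ := by rw [hv.2, hq.2, compl_compl]
          refine ht.out hq.1 hv.1 c1 (fun m hm hTm => ?_) (fun m hm hTm => ?_)
          · exact h2 m ⟨hm, hTm.trans hq.2⟩
          · exact h1 m ⟨hm, by rw [hTm, hq.2, compl_compl]⟩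
        lp3P := fun {z v q c p} hv hq hc hp n1 n2 =>
          hl hv.1 hq.1 (hv.cc hq) hc.1 hp.1 (hc.cc hp) n1 n2
        lp3Q := fun {z v q c p} hv hq hc hp n1 n2 => by
          refine hl hv.1 hq.1 ?_ hc.1 hp.1 ?_ n1 n2
          · rw [hv.2, hq.2, compl_compl]
          · rw [hc.2, hp.2, compl_compl] }
    exact aux
  unP := fun hv => dt_EE hv.1
  unQ := fun hv => dt_EE hv.1
  sgP := fun {_ z v} _ => ore_or T z v
  sgQ := fun {_ z v} _ => ore_or T z v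
  lawP := fun f hs => hL f hs
  lawQ := fun {X v c₁ c₂ c₃} f hs => by
    have f' : FullV (PE T Xᶜ) (PE T Xᶜᶜ) v c₁ c₂ c₃ :=
      ⟨f.h1, f.h2, f.h3, f.n12, f.n13, f.n23, f.q12.cc'', f.q13.cc'', f.q23.cc''⟩
    exact hL f' hs
  f2P := fun {X z v q q'} hv hq hq' hne h1 ho =>
    ht.f2 hv.1 hq.1 hq'.1 (hv.cc hq) (hv.cc hq') hne
      (fun m hm hTm => h1 m ⟨hm, hTm.trans hv.2⟩) ho
  f2Q := fun {X z v q q'} hv hq hq' hne h1 ho => by
    have c1 : ∀ {q : ℂ}, PE T X z q → T q = (T v)ᶜ := fun hq => by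
      rw [hv.2, compl_compl]; exact hq.2
    exact ht.f2 hv.1 hq.1 hq'.1 (c1 hq) (c1 hq') hne
      (fun m hm hTm => h1 m ⟨hm, hTm.trans hv.2⟩) ho
  f22P := fun hE {X z v₁ v₂ q₁ q₂} h1 h2 h12 k1 k2 k12 o1 o2 e1 e2 e3 =>
    ht.f22 hE h1.1 h2.1 h12 (h2.2.trans h1.2.symm) k1.1 k2.1 k12 (h1.cc k1) (h1.cc k2) o1 o2
      e1 e2 e3
  f22Q := fun hE {X z v₁ v₂ q₁ q₂} h1 h2 h12 k1 k2 k12 o1 o2 e1 e2 e3 => by
    have c1 : ∀ {q : ℂ}, PE T X z q → T q = (T v₁)ᶜ := fun hq => by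
      rw [h1.2, compl_compl]; exact hq.2
    exact ht.f22 hE h1.1 h2.1 h12 (h2.2.trans h1.2.symm) k1.1 k2.1 k12 (c1 k1) (c1 k2) o1 o2
      e1 e2 e3

/-- **no centre has two ends of a type and two ends of the complementary type** -/
theorem no22_EE3 (h : Irr U T) (h4 : ∀ z, (T z).ncard ≤ 4) (hl : LP3EE T) (hL : LawEE T)
    (ht : TabU3 E T) {z v₁ v₂ q₁ q₂ : ℂ} (h1 : EE T z v₁) (h2 : EE T z v₂) (h12 : v₁ ≠ v₂)
    (k1 : EE T z q₁) (k2 : EE T z q₂) (k12 : q₁ ≠ q₂) (e2 : T v₂ = T v₁) (f1 : T q₁ = (T v₁)ᶜ)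
    (f2 : T q₂ = (T v₁)ᶜ) : False :=
  (webH_of h h4 hl hL ht).no22 (i := T v₁) (show PE T (T v₁) z v₁ from ⟨h1, rfl⟩)
    (show PE T (T v₁) z v₂ from ⟨h2, e2⟩) h12 (show PE T (T v₁)ᶜ z q₁ from ⟨k1, f1⟩)
    (show PE T (T v₁)ᶜ z q₂ from ⟨k2, f2⟩) k12

/-- the second centre `v + q - z` of a centre with two ends `q, q'` of the type `(T v)ᶜ` has `q` as
its only end of that type -/
theorem second_EE3 (h : Irr U T) (h4 : ∀ z, (T z).ncard ≤ 4) (hl : LP3EE T) (hL : LawEE T)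
    (ht : TabU3 E T) {z v q q' s : ℂ} (hv : EE T z v) (hq : EE T z q) (hq' : EE T z q')
    (hne : q ≠ q') (e1 : T q = (T v)ᶜ) (e2 : T q' = (T v)ᶜ) (hs : EE T (v + q - z) s)
    (e3 : T s = (T v)ᶜ) : s = q :=
  (webH_of h h4 hl hL ht).second (i := T v) (show PE T (T v) z v from ⟨hv, rfl⟩)
    (show PE T (T v)ᶜ z q from ⟨hq, e1⟩) (show PE T (T v)ᶜ z q' from ⟨hq', e2⟩) hne
    (show PE T (T v)ᶜ (v + q - z) s from ⟨hs, e3⟩)

/-- a single end strictly between the two others is wide -/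
theorem opp_wide_EE (h : Irr U T) (h4 : ∀ z, (T z).ncard ≤ 4) (hl : LP3EE T) (hL : LawEE T)
    (ht : TabU3 E T) {z v q q' : ℂ} (hv : EE T z v) (hq : EE T z q) (hq' : EE T z q')
    (hne : q ≠ q') (e1 : T q = (T v)ᶜ) (e2 : T q' = (T v)ᶜ)
    (hs : ∀ m, EE T z m → T m = T v → m = v) (ho : Opp (v - z) (q - z) (q' - z)) :
    Wide E (ore T) z v q q' :=
  (webH_of h h4 hl hL ht).opp_wide (i := T v) (show PE T (T v) z v from ⟨hv, rfl⟩)
    (show PE T (T v)ᶜ z q from ⟨hq, e1⟩) (show PE T (T v)ᶜ z q' from ⟨hq', e2⟩) hne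
    (fun m hm => hs m hm.1 hm.2) ho

end Vale.Agent.P032.Six
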