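import Vale.Agent.P032.S5.H503.WebI3

/-!
# P032: the law of the orientations at a full vertex (897)
-/

open Set Filter Topology Metric

noncomputable section

namespace Vale.Agent.P032.Six

open Vale.Agent.P032.Net (FullV)

variable {U : Fin 6 → Set ℂ} {T : ℂ → Set (Fin 6)} {X : Set (Fin 6)} {z v q m : ℂ}

/-- three subsets with two elements of a set `Y` with three elements, two of them cover `Y` -/
theorem law_sets {Y A B C : Set (Fin 6)} (hY : Y.ncard = 3) (hA : (A ∩ Y).ncard = 2)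
    (hB : (B ∩ Y).ncard = 2) (hC : (C ∩ Y).ncard = 2) (h12 : ∀ i, i ∈ A ∨ i ∈ B)
    (h13 : ∀ i, i ∈ A ∨ i ∈ C) (h23 : ∀ i, i ∈ B ∨ i ∈ C) {i j : Fin 6} (hi : i ∈ A ∩ Y)
    (hj : j ∈ A ∩ Y) (hij : i ≠ j) : i ∈ B ↔ j ∈ C := by
  obtain ⟨k, hk, hkA⟩ : ∃ k ∈ Y, k ∉ A := by
    by_contra hc
    push Not at hc
    have : A ∩ Y = Y := Set.inter_eq_right.2 hc
    rw [this] at hA
    omega
  have hkB := (h12 k).resolve_left hkA
  have hkC := (h13 k).resolve_left hkA
  have hki : k ≠ i := fun hc => hkA (hc ▸ hi.1)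
  have hkj : k ≠ j := fun hc => hkA (hc ▸ hj.1)
  have n3 : ({i, j, k} : Set (Fin 6)).ncard = 3 :=
    Set.ncard_eq_three.2 ⟨i, j, k, hij, hki.symm, hkj.symm, rfl⟩
  have no3 : ∀ D : Set (Fin 6), (D ∩ Y).ncard = 2 → k ∈ D → i ∈ D → j ∈ D → False := by
    intro D hD h1 h2 h3
    have hs : ({i, j, k} : Set (Fin 6)) ⊆ D ∩ Y := by
      rintro x (rfl | rfl | rfl)
      · exact ⟨h2, hi.2⟩
      · exact ⟨h3, hj.2⟩
      · exact ⟨h1, hk⟩
    have := Set.ncard_le_ncard hs (Set.toFinite _)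
    omega
  constructor
  · intro hiB
    rcases h23 j with h5 | h5
    · exact (no3 B hB hkB hiB h5).elim
    · exact h5
  · intro hjC
    rcases h23 i with h5 | h5
    · exact h5
    · exact (no3 C hC hkC h5 hjC).elim

/-- **the law** -/
theorem lawEE_of (h : Irr U T) (h4 : ∀ z, (T z).ncard ≤ 4) : LawEE T := by
  intro X v c₁ c₂ c₃ f hs
  obtain ⟨h1, h2, h3, n12, n13, n23, q12, q13, q23⟩ := f
  -- the ends at the other centres
  have e12 : v + (c₁ + c₂ - v) - c₁ = c₂ := by ring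
  have e13 : v + (c₁ + c₃ - v) - c₁ = c₃ := by ring
  have e23 : v + (c₂ + c₃ - v) - c₂ = c₃ := by ring
  have q21 : PE T Xᶜ c₂ (c₁ + c₂ - v) := by
    have := (h1.rh h h4 q12).2.2; rwa [e12] at this
  have q31 : PE T Xᶜ c₃ (c₁ + c₃ - v) := by
    have := (h1.rh h h4 q13).2.2; rwa [e13] at this
  -- all colours
  have k12 : ∀ i, i ∈ T c₁ ∨ i ∈ T c₂ := fun i => by
    have := h1.1.cov h h4 q12.1 (h1.cc q12) i
    rwa [e12] at this
  have k13 : ∀ i, i ∈ T c₁ ∨ i ∈ T c₃ := fun i => by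
    have := h1.1.cov h h4 q13.1 (h1.cc q13) i
    rwa [e13] at this
  have k23 : ∀ i, i ∈ T c₂ ∨ i ∈ T c₃ := fun i => by
    have := h2.1.cov h h4 q23.1 (h2.cc q23) i
    rwa [e23] at this
  have c1 : (T c₁ ∩ Xᶜ).ncard = 2 := by rw [← q12.2]; exact q12.1.card_i
  have c2 : (T c₂ ∩ Xᶜ).ncard = 2 := by rw [← q21.2]; exact q21.1.card_i
  have c3 : (T c₃ ∩ Xᶜ).ncard = 2 := by rw [← q31.2]; exact q31.1.card_i
  have hX : (Xᶜ : Set (Fin 6)).ncard = 3 := by rw [← q12.2]; exact q12.1.card_v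
  set i := inn U T c₁ (c₁ + c₂ - v) with hi
  set j := inn U T c₁ (c₁ + c₃ - v) with hj
  have mi : i ∈ T c₁ ∩ Xᶜ := by
    have := q12.1.inn_mem h
    rw [q12.2] at this
    exact ⟨this.2, this.1⟩
  have mj : j ∈ T c₁ ∩ Xᶜ := by
    have := q13.1.inn_mem h
    rw [q13.2] at this
    exact ⟨this.2, this.1⟩
  -- LP2
  have l2 := h1.1.lp2 h q12.1 q13.1 (by
    rw [q12.2, h1.2, Set.sdiff_eq, inter_comm]) (by
    rw [q13.2, h1.2, Set.sdiff_eq, inter_comm])
  have s1 : cr (v - c₁) (c₁ + c₂ - v - c₁) = -cr (c₁ - v) (c₂ - v) := by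
    unfold cr; simp only [Complex.sub_re, Complex.sub_im, Complex.add_re, Complex.add_im]; ring
  have s2 : cr (v - c₁) (c₁ + c₃ - v - c₁) = cr (c₃ - v) (c₁ - v) := by
    unfold cr; simp only [Complex.sub_re, Complex.sub_im, Complex.add_re, Complex.add_im]; ring
  rw [s1, s2] at l2
  have hij : i ≠ j := by
    intro hc
    have := l2.1 hc
    have e : -cr (c₁ - v) (c₂ - v) * cr (c₃ - v) (c₁ - v) =
      -(cr (c₁ - v) (c₂ - v) * cr (c₃ - v) (c₁ - v)) := by ring
    rw [e] at this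
    linarith
  have key := law_sets hX c1 c2 c3 k12 k13 k23 mi mj hij
  -- LP1
  have a1 := q21.1.lp1 h h4 h2.1 (by rw [h2.2, q21.2, compl_compl])
  have a2 := q31.1.lp1 h h4 h3.1 (by rw [h3.2, q31.2, compl_compl])
  have r1 : c₁ + c₂ - v + v - c₂ = c₁ := by ring
  have r2 : c₁ + c₃ - v + v - c₃ = c₁ := by ring
  rw [r1] at a1
  rw [r2] at a2
  have t1 : cr (c₂ - (c₁ + c₂ - v)) (v - c₂) = cr (c₁ - v) (c₂ - v) := by
    unfold cr; simp only [Complex.sub_re, Complex.sub_im, Complex.add_re, Complex.add_im]; ring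
  have t2 : cr (c₃ - (c₁ + c₃ - v)) (v - c₃) = -cr (c₃ - v) (c₁ - v) := by
    unfold cr; simp only [Complex.sub_re, Complex.sub_im, Complex.add_re, Complex.add_im]; ring
  rw [t1] at a1
  rw [t2] at a2
  have hA : (0 < ore T c₂ (c₁ + c₂ - v) * cr (c₁ - v) (c₂ - v)) ↔
      0 < ore T c₃ (c₁ + c₃ - v) * -cr (c₃ - v) (c₁ - v) := by
    rw [a1, a2]; exact key
  generalize cr (c₁ - v) (c₂ - v) = x at *
  generalize cr (c₃ - v) (c₁ - v) = y at *
  rcases ore_or T c₂ (c₁ + c₂ - v) with o1 | o1 <;> rcases ore_or T c₃ (c₁ + c₃ - v) with o2 | o2 <;>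
    rw [o1, o2] at hA ⊢
  · exfalso
    rcases lt_trichotomy x 0 with hx | hx | hx
    · have hy : y < 0 := by
        by_contra hc
        exact absurd (mul_nonpos_of_nonpos_of_nonneg hx.le (not_lt.1 hc)) (not_le.2 hs)
      have := hA.2 (by linarith)
      linarith
    · rw [hx] at hs; linarith
    · have hy : 0 < y := (pos_iff_pos_of_mul_pos hs).1 hx
      have := hA.1 (by linarith)
      linarith
  · ring
  · exfalso
    rcases lt_trichotomy x 0 with hx | hx | hx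
    · have hy : y < 0 := by
        by_contra hc
        exact absurd (mul_nonpos_of_nonpos_of_nonneg hx.le (not_lt.1 hc)) (not_le.2 hs)
      have := hA.1 (by linarith)
      linarith
    · rw [hx] at hs; linarith
    · have hy : 0 < y := (pos_iff_pos_of_mul_pos hs).1 hx
      have := hA.2 (by linarith)
      linarith

end Vale.Agent.P032.Six
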