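import Vale.Agent.P032.S5.H12.NetE
import Vale.Agent.P032.Net.Fam

/-!
# P032: the networks of a family `Irr U T` with adjacent four-coloured points

`Web1` for the ends `EE` of the two-pair centres, also on circles with other four-coloured points.
The facts on one centre come in as `TabU`.
-/

open Set Filter Topology Metric

noncomputable section

namespace Vale.Agent.P032.Six

open Vale.Agent.P032.Net (Web1 WebF Opp Bad22 det)

variable {U : Fin 6 → Set ℂ} {T : ℂ → Set (Fin 6)} {X : Set (Fin 6)} {z v q m : ℂ}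

/-- the ends of type `X` -/
def PE (T : ℂ → Set (Fin 6)) (X : Set (Fin 6)) (z v : ℂ) : Prop := EE T z v ∧ T v = X

/-- the third edge at a vertex -/
def LP3EE (T : ℂ → Set (Fin 6)) : Prop :=
  ∀ {z v q c p : ℂ}, EE T z v → EE T z q → T q = (T v)ᶜ → EE T c v → EE T c p → T p = (T v)ᶜ →
    c ≠ z → c ≠ v + q - z → ∃ a b : ℝ, 0 ≤ a ∧ 0 ≤ b ∧
      ((ore T c v : ℝ) : ℂ) * (c - v) + (a : ℂ) * (((ore T z v : ℝ) : ℂ) * (z - v))
        + (b : ℂ) * (((ore T (v + q - z) v : ℝ) : ℂ) * (q - z)) = 0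

/-- the facts on one centre -/
structure TabU (T : ℂ → Set (Fin 6)) : Prop where
  /-- counts `(1,2)`: the double ends are on different sides of the line of the single end -/
  s12 : ∀ {z v q q' : ℂ}, EE T z v → EE T z q → EE T z q' → T q = (T v)ᶜ → T q' = (T v)ᶜ →
    q ≠ q' → (∀ m, EE T z m → T m = T v → m = v) →
    (∀ m, EE T z m → T m = (T v)ᶜ → m = q ∨ m = q') → cr (v - z) (q - z) * cr (v - z) (q' - z) < 0
  /-- counts `(1,1)`: the arcs point away from each other -/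
  out : ∀ {z v q : ℂ}, EE T z v → EE T z q → T q = (T v)ᶜ →
    (∀ m, EE T z m → T m = T v → m = v) → (∀ m, EE T z m → T m = (T v)ᶜ → m = q) →
    0 < ore T z v * cr (v - z) (q - z)
  /-- counts `(1,2)`, the single end strictly between the double ends -/
  f2 : ∀ {z v q q' : ℂ}, EE T z v → EE T z q → EE T z q' → T q = (T v)ᶜ → T q' = (T v)ᶜ →
    q ≠ q' → (∀ m, EE T z m → T m = T v → m = v) → Opp (v - z) (q - z) (q' - z) →
    ∃ Y : Set (Fin 6), Bad22 (PE T Y) (PE T Yᶜ) z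

namespace PE

theorem cc (hv : PE T X z v) {z' : ℂ} (hq : PE T Xᶜ z' q) : T q = (T v)ᶜ := by
  rw [hv.2, hq.2]

theorem card (hv : PE T X z v) : X.ncard = 3 := by rw [← hv.2]; exact hv.1.card_v

theorem cardc (hv : PE T Xᶜ z v) : X.ncard = 3 := by
  have h3 := hv.1.card_v
  rw [hv.2] at h3
  have := Set.ncard_add_ncard_compl X
  rw [Nat.card_eq_fintype_card, Fintype.card_fin] at this
  omega

theorem rh (h : Irr U T) (h4 : ∀ z, (T z).ncard ≤ 4) (hv : PE T X z v) (hq : PE T Xᶜ z q) :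
    v + q ≠ 2 * z ∧ PE T X (v + q - z) v ∧ PE T Xᶜ (v + q - z) q :=
  ⟨hv.1.anti h hq.1 (hv.cc hq), ⟨hv.1.rh h h4 hq.1 (hv.cc hq), hv.2⟩,
    ⟨hv.1.rh' h h4 hq.1 (hv.cc hq), hq.2⟩⟩

theorem three (h : Irr U T) {a b c d : ℂ} (ha : PE T X a v) (hb : PE T X b v) (hc : PE T X c v)
    (hd : PE T X d v) (ha' : ∃ q, PE T Xᶜ a q) (hb' : ∃ q, PE T Xᶜ b q) (hc' : ∃ q, PE T Xᶜ c q)
    (hd' : ∃ q, PE T Xᶜ d q) (hab : a ≠ b) (hac : a ≠ c) (hbc : b ≠ c) :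
    d = a ∨ d = b ∨ d = c := by
  obtain ⟨qa, ha'⟩ := ha'
  obtain ⟨qb, hb'⟩ := hb'
  obtain ⟨qc, hc'⟩ := hc'
  obtain ⟨qd, hd'⟩ := hd'
  rcases h.en_three ha.card ⟨ha.1.en ha.2, _, ha'.1.en ha'.2⟩ ⟨hb.1.en hb.2, _, hb'.1.en hb'.2⟩
    ⟨hc.1.en hc.2, _, hc'.1.en hc'.2⟩ ⟨hd.1.en hd.2, _, hd'.1.en hd'.2⟩ with
    h1 | h1 | h1 | h1 | h1 | h1
  · exact absurd h1 hab
  · exact absurd h1 hac
  · exact Or.inl h1.symm
  · exact absurd h1 hbc
  · exact Or.inr (Or.inl h1.symm)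
  · exact Or.inr (Or.inr h1.symm)

theorem sep (h : Irr U T) {v₁ v₂ q₁ q₂ : ℂ} (hv₁ : PE T X z v₁) (hv₂ : PE T X z v₂)
    (hq₁ : PE T Xᶜ z q₁) (hq₂ : PE T Xᶜ z q₂) :
    0 < det (v₁ - z) (q₁ - z) * det (v₁ - z) (q₂ - z) *
      (det (v₂ - z) (q₁ - z) * det (v₂ - z) (q₂ - z)) := by
  have e : ∀ {v q}, PE T X z v → PE T Xᶜ z q → T v ∩ T z = T z \ T q := by
    rintro v q ⟨-, h1⟩ ⟨-, h2⟩
    rw [h1, h2, Set.sdiff_compl, inter_comm]
  have l1 := hq₁.1.lp2 h hv₁.1 hv₂.1 (e hv₁ hq₁) (e hv₂ hq₁)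
  have l2 := hq₂.1.lp2 h hv₁.1 hv₂.1 (e hv₁ hq₂) (e hv₂ hq₂)
  have nz : ∀ {v q}, PE T X z v → PE T Xᶜ z q → cr (q - z) (v - z) ≠ 0 := by
    intro v q hv hq
    refine cr_ne_of hq.1.dist hv.1.dist ((hv.1.en hv.2).ne hv.card (hq.1.en hq.2)).symm ?_
    rw [add_comm]
    exact hv.1.anti h hq.1 (hv.cc hq)
  have n11 := nz hv₁ hq₁
  have n21 := nz hv₂ hq₁
  have n12 := nz hv₁ hq₂
  have n22 := nz hv₂ hq₂
  have hP : (0 < cr (q₁ - z) (v₁ - z) * cr (q₁ - z) (v₂ - z)) ↔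
      0 < cr (q₂ - z) (v₁ - z) * cr (q₂ - z) (v₂ - z) := l1.symm.trans l2
  have hpos : 0 < (cr (q₁ - z) (v₁ - z) * cr (q₁ - z) (v₂ - z)) *
      (cr (q₂ - z) (v₁ - z) * cr (q₂ - z) (v₂ - z)) := by
    rcases lt_or_gt_of_ne (mul_ne_zero n11 n21) with h5 | h5
    · rcases lt_or_gt_of_ne (mul_ne_zero n12 n22) with h6 | h6
      · exact mul_pos_of_neg_of_neg h5 h6
      · exact absurd (hP.2 h6) (not_lt.2 h5.le)
    · exact mul_pos h5 (hP.1 h5)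
  refine hpos.trans_le (le_of_eq ?_)
  unfold cr Vale.Agent.P032.Net.det
  ring

theorem cc' {X : Set (Fin 6)} (hv : PE T Xᶜᶜ z v) : PE T X z v := by
  rw [compl_compl] at hv; exact hv

theorem cc'' {X : Set (Fin 6)} (hv : PE T X z v) : PE T Xᶜᶜ z v := by
  rw [compl_compl]; exact hv

end PE

/-- **the instance of the network** -/
theorem web1_of (h : Irr U T) (h4 : ∀ z, (T z).ncard ≤ 4) (hl : LP3EE T) (ht : TabU T)
    (X : Set (Fin 6)) : Web1 (PE T X) (PE T Xᶜ) (ore T) where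
  rh := fun hv hq => hv.rh h h4 hq
  threeP := fun ha hb hc hd ha' hb' hc' hd' => ha.three h hb hc hd ha' hb' hc' hd'
  threeQ := fun ha hb hc hd ha' hb' hc' hd' => PE.three h ha hb hc hd
    (ha'.imp fun _ x => x.cc'') (hb'.imp fun _ x => x.cc'') (hc'.imp fun _ x => x.cc'')
    (hd'.imp fun _ x => x.cc'')
  sep := fun hv hv' hq hq' => hv.sep h hv' hq hq'
  s12 := fun {z v q q'} hv hq hq' hne h1 h2 => by
    refine ht.s12 hv.1 hq.1 hq'.1 (hv.cc hq) (hv.cc hq') hne (fun m hm hTm => ?_)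
      (fun m hm hTm => ?_)
    · exact h1 m ⟨hm, hTm.trans hv.2⟩
    · exact h2 m ⟨hm, by rw [hTm, hv.2]⟩
  s21 := fun {z v q q'} hv hq hq' hne h1 h2 => by
    have c1 : ∀ {q : ℂ}, PE T X z q → T q = (T v)ᶜ := fun hq => by
      rw [hv.2, compl_compl]; exact hq.2
    refine ht.s12 hv.1 hq.1 hq'.1 (c1 hq) (c1 hq') hne (fun m hm hTm => ?_) (fun m hm hTm => ?_)
    · exact h1 m ⟨hm, hTm.trans hv.2⟩
    · exact h2 m ⟨hm, by rw [hTm, hv.2, compl_compl]⟩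
  outP := fun {z v q} hv hq h1 h2 => by
    refine ht.out hv.1 hq.1 (hv.cc hq) (fun m hm hTm => ?_) (fun m hm hTm => ?_)
    · exact h1 m ⟨hm, hTm.trans hv.2⟩
    · exact h2 m ⟨hm, by rw [hTm, hv.2]⟩
  outQ := fun {z v q} hv hq h1 h2 => by
    have c1 : T v = (T q)ᶜ := by rw [hv.2, hq.2, compl_compl]
    refine ht.out hq.1 hv.1 c1 (fun m hm hTm => ?_) (fun m hm hTm => ?_)
    · exact h2 m ⟨hm, hTm.trans hq.2⟩
    · exact h1 m ⟨hm, by rw [hTm, hq.2, compl_compl]⟩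
  lp3P := fun {z v q c p} hv hq hc hp n1 n2 =>
    hl hv.1 hq.1 (hv.cc hq) hc.1 hp.1 (hc.cc hp) n1 n2
  lp3Q := fun {z v q c p} hv hq hc hp n1 n2 => by
    refine hl hv.1 hq.1 ?_ hc.1 hp.1 ?_ n1 n2
    · rw [hv.2, hq.2, compl_compl]
    · rw [hc.2, hp.2, compl_compl]

/-- the family of the networks -/
theorem webF_of (h : Irr U T) (h4 : ∀ z, (T z).ncard ≤ 4) (hl : LP3EE T) (ht : TabU T) :
    WebF (fun X : Set (Fin 6) => PE T X) (fun X => PE T Xᶜ) (fun _ => ore T) where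
  web := fun X => web1_of h h4 hl ht X
  f2P := fun {X z v q q'} hv hq hq' hne h1 ho =>
    ht.f2 hv.1 hq.1 hq'.1 (hv.cc hq) (hv.cc hq') hne
      (fun m hm hTm => h1 m ⟨hm, hTm.trans hv.2⟩) ho
  f2Q := fun {X z v q q'} hv hq hq' hne h1 ho => by
    have c1 : ∀ {q : ℂ}, PE T X z q → T q = (T v)ᶜ := fun hq => by
      rw [hv.2, compl_compl]; exact hq.2
    exact ht.f2 hv.1 hq.1 hq'.1 (c1 hq) (c1 hq') hne
      (fun m hm hTm => h1 m ⟨hm, hTm.trans hv.2⟩) ho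

/-- **no centre has two ends of a type and two ends of the complementary type** -/
theorem no22_EE (h : Irr U T) (h4 : ∀ z, (T z).ncard ≤ 4) (hl : LP3EE T) (ht : TabU T)
    {z v₁ v₂ q₁ q₂ : ℂ} (h1 : EE T z v₁) (h2 : EE T z v₂) (h12 : v₁ ≠ v₂) (k1 : EE T z q₁)
    (k2 : EE T z q₂) (k12 : q₁ ≠ q₂) (e2 : T v₂ = T v₁) (f1 : T q₁ = (T v₁)ᶜ)
    (f2 : T q₂ = (T v₁)ᶜ) : False :=
  (webF_of h h4 hl ht).no22 (i := T v₁) (show PE T (T v₁) z v₁ from ⟨h1, rfl⟩)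
    (show PE T (T v₁) z v₂ from ⟨h2, e2⟩) h12 (show PE T (T v₁)ᶜ z q₁ from ⟨k1, f1⟩)
    (show PE T (T v₁)ᶜ z q₂ from ⟨k2, f2⟩) k12

end Vale.Agent.P032.Six
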